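import Vale.Agent.P224.R2.H979.ChkU
import Vale.Agent.P224.R2.H979.C20.Rows
import Vale.Agent.P224.R2.H979.C20.El
import Vale.Agent.P224.R2.H979.C20.DF0
import Vale.Agent.P224.R2.H979.C20.DF1

/-!
The identity of the certificate in dimension 20 and the positivity of its left side.
-/

namespace Vale.Agent.P224.R2.H979.C20

open Vale.Agent.P224.UE Vale.Agent.P224.POS Vale.Agent.P224.PO Vale.Agent.P224.R2.H979
open scoped RealInnerProductSpace

noncomputable section

/-- the blocks with the multiplier number 0 -/
def B1 : List BlkG := [⟨els0, G0⟩, ⟨els1, G1⟩, ⟨els2, G2⟩, ⟨els3, G3⟩]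

/-- the blocks with the multiplier number 1 -/
def Br : List BlkG := []

/-- the integers replacing the first four variables (not powers of two: the kernel hashes a numeral
by its last 64 bits) -/
def Ms : List Nat := [
  Nat.add (Nat.pow 2 92) 416665776390930537,
  Nat.add (Nat.pow 2 2473) 453489721237985852,
  Nat.add (Nat.pow 2 12810) 507264511719895883,
  Nat.add (Nat.pow 2 64495) 87163912731291157]

set_option maxRecDepth 100000 in
/-- the entries are bounded -/
theorem idG : allB 684834499164075366820 (mulU B1 Br) = true := by decide +kernel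

set_option maxRecDepth 100000 in
/-- the bounds -/
theorem idB : bchkN (bndU 8 684834499164075366820 P (mulU B1 Br)) Ms [] = true := by decide +kernel

set_option maxRecDepth 100000 in
/-- **The identity**, checked by the kernel. -/
theorem idM : HP.zero (PE.hp (env Ms)
    (PE.sub (PE.sb sbU P) (PE.mul (PE.c 8) (rhsG tabU (mulU B1 Br))))) = true := by
  decide +kernel

set_option maxRecDepth 100000 in
lemma tri0 : tri G0 0 = true := by decide +kernel

set_option maxRecDepth 100000 in
lemma tri1 : tri G1 0 = true := by decide +kernel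

set_option maxRecDepth 100000 in
lemma tri2 : tri G2 0 = true := by decide +kernel

set_option maxRecDepth 100000 in
lemma tri3 : tri G3 0 = true := by decide +kernel

lemma hB1 : GoodB B1 := by
  intro B hB
  unfold B1 at hB
  rcases List.mem_cons.1 hB with rfl | hB
  · exact ⟨tri0, fun x => qpos_of_psdF psd0 x⟩
  rcases List.mem_cons.1 hB with rfl | hB
  · exact ⟨tri1, fun x => qpos_of_psdF psd1 x⟩
  rcases List.mem_cons.1 hB with rfl | hB
  · exact ⟨tri2, fun x => qpos_of_psdF psd2 x⟩
  rcases List.mem_cons.1 hB with rfl | hB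
  · exact ⟨tri3, fun x => qpos_of_psdF psd3 x⟩
  · exact absurd hB List.not_mem_nil

lemma hBr : GoodB Br := by
  intro B hB
  unfold Br at hB
  · exact absurd hB List.not_mem_nil

/-- **Positivity** of the left side on pair data with a unit vector. -/
theorem pos {E : Type*} [NormedAddCommGroup E] [InnerProductSpace ℝ E] (v x N y w : E)
    (hv : ‖v‖ = 1) (hx : ‖x‖ = 1) (hN : ‖N‖ = 1) (hy : ‖y‖ = 1) (hw : ‖w‖ = 1)
    (hxN : ⟪x, N⟫ = 0) (hyw : ⟪y, w⟫ = 0) (hs : ⟪x, y⟫ < 1) :
    0 ≤ PE.ev (vh (dv x N y w v)) P :=
  nonneg_of_chkU 8 (by norm_num) idG idB idM hB1 hBr hv hx hN hy hw hxN hyw hs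

end

end Vale.Agent.P224.R2.H979.C20
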